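import Vale.Agent.P207.N4.Dim
import Vale.Agent.P207.N7.H547.AffLemB
import Vale.Agent.P207.N7.H229.PdBd

/-!
# P207, line N7, row PD-GLUE: the data of the product formula at every frame

Over `P : Pic L V` and `D : BusD P.Bu P.S.A` (densities, product formula at the crossings):
`pd_glue`: for every frame `x` there is `d : H281.PD E2` with `d.Ok K θ r0 Ck CQ`, the constants do
not depend on `x`; `d.g y = P.gr x (lb P x y)`, `d.N p = - P.N0 x p`, and `d.hol y p` is the crossing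
of the leaf with the label `y` with the stable leaf of the point `p`.
-/

set_option linter.unusedSectionVars false

open Set Filter Topology Metric MeasureTheory
open scoped ContDiff RealInnerProductSpace

noncomputable section

namespace Vale.Agent.P207.N4.Y.H229

open Vale.Agent.P207.N4.H229

open Vale.Agent.P207.N3
open Vale.Agent.P207.H229 (C3 Cr coer_compact isOpen_posdef det_ne_zero_of_posdef contDiff_det'
  det_comp' det_adjoint' det_ne_zero_iff')

variable [Dim]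

variable {Γ X B : Type} [Group Γ] [MetricSpace X] [ProperSpace X] [MulAction Γ X]
  [IsIsometricSMul Γ X] [TopologicalSpace B] [CompactSpace B] [T2Space B] [MulAction Γ B]
  [ContinuousConstSMul Γ B]

variable {L : Leaf Γ X B} [MeasurableSpace B] [BorelSpace B] {V : Type}
  [NormedAddCommGroup V] [NormedSpace ℝ V] [FiniteDimensional ℝ V] (P : Pic L V)

/-! ### the labels -/

/-- the leaf with the label `y` (the covector at the centre, in the affine coordinate) -/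
def lb (x : X) (y : E2) : B := H709.lab P.Bu x (P.Af.c • y)

theorem norm_c (y : E2) : ‖P.Af.c • y‖ = P.Af.c * ‖y‖ := by
  rw [norm_smul, Real.norm_eq_abs, abs_of_pos P.Af.c_pos]

theorem lb_zero (x : X) : lb P x 0 = L.em x := by
  rw [lb, smul_zero, H709.lab_zero]

theorem lb_smul (g : Γ) (x : X) (y : E2) : lb P (g • x) y = g • lb P x y := H709.lab_smul P.Bu g x _

theorem lb_nu (x : X) {y : E2} (h : P.Af.c * ‖y‖ < P.Bu.δ) : 0 < P.Bu.nu x (lb P x y) 0 :=
  H709.lab_nu P.Bu x (by rwa [norm_c])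

theorem lb_gr (x : X) {y : E2} (h : P.Af.c * ‖y‖ < P.Bu.δ) : P.gr x (lb P x y) 0 = y := by
  rw [P.gr_zero, lb, (H709.lab_spec P.Bu x (by rwa [norm_c])).2, smul_smul,
    inv_mul_cancel₀ P.Af.c_pos.ne', one_smul]

theorem lb_unique (x : X) {ξ : B} (h : 0 ≤ P.Bu.nu x ξ 0)
    (h' : P.Af.c * ‖P.gr x ξ 0‖ < P.Bu.δ) : lb P x (P.gr x ξ 0) = ξ := by
  have h1 : P.Af.c • P.gr x ξ 0 = gradient (H709.dl P.Bu x ξ) 0 := by
    rw [P.gr_zero, smul_smul, mul_inv_cancel₀ P.Af.c_pos.ne', one_smul, H709.gradient_dl_zero]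
  rw [lb, h1]
  refine H709.lab_unique P.Bu x ξ h ?_
  rwa [← h1, norm_c]

/-- continuity of the labels -/
theorem lb_cont : ContinuousOn (fun p : X × E2 => lb P p.1 p.2)
    {p | P.Af.c * ‖p.2‖ < P.Bu.δ} := by
  have h1 : Continuous fun p : X × E2 => ((p.1, P.Af.c • p.2) : X × E2) := by fun_prop
  have h2 : MapsTo (fun p : X × E2 => ((p.1, P.Af.c • p.2) : X × E2))
      {p | P.Af.c * ‖p.2‖ < P.Bu.δ} (univ ×ˢ ball 0 P.Bu.δ) := by
    intro p hp
    refine ⟨mem_univ _, ?_⟩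
    rw [mem_ball_zero_iff, norm_c]
    exact hp
  have h3 := (H709.lab_cont P.Bu).comp h1.continuousOn h2
  exact h3

/-- **the leaves with small labels are transversal to the discs** -/
theorem exists_lb_nu : ∃ ρ > 0, P.Af.c * ρ ≤ P.Bu.δ ∧ ∀ x y, ‖y‖ < ρ →
    ∀ u ∈ closedBall (0 : E2) 1, 0 < P.Bu.nu x (lb P x y) u := by
  obtain ⟨ρ, hρ, hδ, h⟩ := H709.exists_nu_pos P.Bu P.nupos (r := 1) (by norm_num)
  have hc := P.Af.c_pos
  refine ⟨P.Af.c⁻¹ * ρ, by positivity, ?_, fun x y hy u hu => ?_⟩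
  · rw [mul_inv_cancel_left₀ hc.ne']
    exact hδ
  · refine h x (P.Af.c • y) ?_ u hu
    rw [norm_c]
    calc P.Af.c * ‖y‖ < P.Af.c * (P.Af.c⁻¹ * ρ) := by gcongr
      _ = ρ := mul_inv_cancel_left₀ hc.ne' _

/-! ### the densities in the affine coordinate -/

/-- the domain of the discs -/
def SR : Set ((X × E2) × E2) := {p | (p.1.1, p.2) ∈ P.Af.dT}

theorem isOpen_SR : IsOpen (SR P) :=
  P.Af.isOpen_dT.preimage (by fun_prop : Continuous fun p : (X × E2) × E2 => (p.1.1, p.2))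

theorem dscR_jc : JC (fun (a : X × E2) q => P.dsc a.1 q) (SR P) :=
  P.Af.dsc_jc.pullback continuous_fst

/-- the determinant of the chart -/
def jac (x : X) (q : E2) : ℝ := Real.log |(fderiv ℝ (P.dsc x) q).det|

theorem det_dsc_ne {x : X} {q : E2} (h : (x, q) ∈ P.Af.dT) : (fderiv ℝ (P.dsc x) q).det ≠ 0 :=
  (det_ne_zero_iff' _).2 (P.Af.der_dsc_inv h)

theorem jac_jc : JC (fun (a : X × E2) q => jac P a.1 q) (SR P) := by
  have h1 : JC (fun (a : X × E2) q => (fderiv ℝ (P.dsc a.1) q).det) (SR P) :=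
    (dscR_jc P).fderiv.comp_contDiff contDiff_det'
  exact (h1.log fun p hp => det_dsc_ne P hp).congr fun p _ => Real.log_abs _

theorem jac_smul (g : Γ) {x : X} {q : E2} (h : (x, q) ∈ P.Af.dT) : jac P (g • x) q = jac P x q := by
  have h1 : P.dsc (g • x) =ᶠ[𝓝 q] P.dsc x := by
    filter_upwards [(isOpen_slice P.Af.isOpen_dT x).mem_nhds h] with w hw using P.Af.dsc_smul g hw
  rw [jac, jac, h1.fderiv_eq]

theorem bem_jc : JC (fun (a : X × E2) q => P.bq a.1 (L.em a.1) q) (SR P) := by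
  have hc : Continuous fun a : X × E2 => ((a.1, L.em a.1) : X × B) :=
    continuous_fst.prodMk (L.em_cont.comp continuous_fst)
  exact P.bq_jc.pullback hc

theorem bem_smul (g : Γ) {x : X} {q : E2} (h : (x, q) ∈ P.Af.dT) :
    P.bq (g • x) (L.em (g • x)) q = P.bq x (L.em x) q := by
  rw [L.em_smul, P.bq_smul g h]

variable {P} (D : BusD P.Bu P.S.A)

/-- the logarithm of the density of the leaf `ξ`, normalised at the leaf of the frame -/
def XF (a : X × E2) (q : E2) : ℝ :=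
  D.ρ a.1 (lb P a.1 a.2) (P.dsc a.1 q) + jac P a.1 q - P.S.A.h * P.bq a.1 (L.em a.1) q

/-- the logarithm of the density of the stable leaf of the point `p` -/
def YF (a : X × E2) (q : E2) : ℝ :=
  D.ρ a.1 (P.Af.pt a.1 a.2) (P.dsc a.1 q) + jac P a.1 q + P.S.A.h * P.bq a.1 (L.em a.1) q

variable (P) in
/-- the domain of `XF` -/
def SX (ρ : ℝ) : Set ((X × E2) × E2) := {p | ‖p.1.2‖ < ρ ∧ p.2 ∈ ball (0 : E2) 2}

variable (P) in
theorem isOpen_SX (ρ : ℝ) : IsOpen (SX (X := X) ρ) := by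
  have h1 : IsOpen {p : (X × E2) × E2 | ‖p.1.2‖ < ρ} := isOpen_lt (by fun_prop) continuous_const
  exact h1.inter (isOpen_ball.preimage continuous_snd)

theorem SX_SR {ρ : ℝ} : SX (X := X) ρ ⊆ SR P := fun _ hp =>
  P.Af.closedBall_dT _ (ball_subset_closedBall hp.2)

theorem dsc_one (x : X) {q : E2} (hq : q ∈ closedBall (0 : E2) 2) :
    P.dsc x q ∈ closedBall (0 : E2) 1 := ball_subset_closedBall (P.Af.dsc_mem_one x hq)

theorem dsc_three (x : X) {q : E2} (hq : q ∈ closedBall (0 : E2) 2) :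
    P.dsc x q ∈ ball (0 : E2) 3 :=
  ball_subset_ball (by norm_num) (P.Af.dsc_mem_one x hq)

theorem XF_jc {ρ : ℝ} (hρ : P.Af.c * ρ ≤ P.Bu.δ)
    (hnu : ∀ x y, ‖y‖ < ρ → ∀ u ∈ closedBall (0 : E2) 1, 0 < P.Bu.nu x (lb P x y) u) :
    JC (XF D) (SX ρ) := by
  have hO := isOpen_SX (X := X) ρ
  have hU : IsOpen {a : X × E2 | ‖a.2‖ < ρ} := isOpen_lt (by fun_prop) continuous_const
  have hc : ContinuousOn (fun a : X × E2 => ((a.1, lb P a.1 a.2) : X × B))
      {a : X × E2 | ‖a.2‖ < ρ} := by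
    refine continuousOn_fst.prodMk ((lb_cont P).mono fun a ha => ?_)
    have : P.Af.c * ‖a.2‖ < P.Af.c * ρ := mul_lt_mul_of_pos_left ha P.Af.c_pos
    exact this.trans_le hρ
  have h1 := jc_pullbackOn D.ρ_jc hU hc
  have h2 : JC (fun (a : X × E2) q => D.ρ a.1 (lb P a.1 a.2) (P.dsc a.1 q)) (SX ρ) :=
    h1.comp' ((dscR_jc P).mono hO SX_SR) fun p hp =>
      ⟨hp.1, dsc_three _ (ball_subset_closedBall hp.2),
        (hnu p.1.1 p.1.2 hp.1 _ (dsc_one _ (ball_subset_closedBall hp.2))).ne'⟩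
  exact (h2.add ((jac_jc P).mono hO SX_SR)).sub (((bem_jc P).mono hO SX_SR).const_smul P.S.A.h)

theorem XF_inv {ρ : ℝ}
    (hnu : ∀ x y, ‖y‖ < ρ → ∀ u ∈ closedBall (0 : E2) 1, 0 < P.Bu.nu x (lb P x y) u) :
    Inv3 (Γ := Γ) (XF D) (SX ρ) := by
  intro g x y q hq
  have hd : (x, q) ∈ P.Af.dT := P.Af.closedBall_dT x (ball_subset_closedBall hq.2)
  rw [XF, XF, jac_smul P g hd, bem_smul P g hd, lb_smul]
  have h1 : P.dsc (g • x) q = P.dsc x q := P.Af.dsc_smul g hd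
  simp only
  rw [h1, D.ρ_smul g x _ _ (dsc_three _ (ball_subset_closedBall hq.2))
    (hnu x y hq.1 _ (dsc_one _ (ball_subset_closedBall hq.2))).ne']

/-! ### the stable leaves -/

/-- the generating functions of the stable leaves -/
def gmF (P : Pic L V) (a : X × E2) (q : E2) : ℝ := P.Sq a.1 (L.em a.1) (P.Af.pt a.1 a.2) q

theorem bpt_jc (P : Pic L V) : JC (fun (a : X × E2) q => P.bq a.1 (P.Af.pt a.1 a.2) q) (SR P) := by
  have hc : Continuous fun a : X × E2 => ((a.1, P.Af.pt a.1 a.2) : X × B) :=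
    continuous_fst.prodMk P.Af.pt_cont
  exact P.bq_jc.pullback hc

theorem gmF_jc (P : Pic L V) : JC (gmF P) (SR P) := (bem_jc P).add (bpt_jc P)

theorem gmF_inv (P : Pic L V) : Inv3 (Γ := Γ) (gmF P) (SR P) := by
  intro g x p q h
  have h' : (x, q) ∈ P.Af.dT := h
  have h1 := P.bq_smul g h' (P.Af.pt x p)
  rw [← P.Af.pt_smul] at h1
  change P.bq (g • x) (L.em (g • x)) q + P.bq (g • x) (P.Af.pt (g • x) p) q
    = P.bq x (L.em x) q + P.bq x (P.Af.pt x p) q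
  rw [bem_smul P g h', h1]

/-- the domain of the stable leaves -/
def S1 (P : Pic L V) : Set ((X × E2) × E2) :=
  {p | p ∈ SR P ∧ P.Bu.nu p.1.1 (P.Af.pt p.1.1 p.1.2) (P.dsc p.1.1 p.2) < 0}

theorem isOpen_S1 (P : Pic L V) : IsOpen (S1 P) := by
  have h1 : ContinuousOn (fun p : (X × E2) × E2 =>
      (((p.1.1, P.Af.pt p.1.1 p.1.2), P.dsc p.1.1 p.2) : (X × B) × E2)) (SR P) := by
    refine ContinuousOn.prodMk ?_ (dscR_jc P).continuousOn
    have hc : Continuous fun a : X × E2 => ((a.1, P.Af.pt a.1 a.2) : X × B) :=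
      continuous_fst.prodMk P.Af.pt_cont
    exact (hc.comp continuous_fst).continuousOn
  have h2 : ContinuousOn (fun p : (X × E2) × E2 =>
      P.Bu.nu p.1.1 (P.Af.pt p.1.1 p.1.2) (P.dsc p.1.1 p.2)) (SR P) :=
    P.Bu.nu_cont.comp h1 fun p hp => ⟨mem_univ _, P.mem3 hp⟩
  exact h2.isOpen_inter_preimage (isOpen_SR P) isOpen_Iio

/-- the domain where the Hessian is positive -/
def S2 (P : Pic L V) : Set ((X × E2) × E2) :=
  {p | p ∈ S1 P ∧ hess (gmF P p.1) p.2 ∈ {A : E2 →L[ℝ] E2 | ∀ v ≠ 0, 0 < ⟪A v, v⟫}}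

theorem isOpen_S2 (P : Pic L V) : IsOpen (S2 P) :=
  ((H709.hess_jc (gmF_jc P)).continuousOn.mono fun _ hp => hp.1).isOpen_inter_preimage
    (isOpen_S1 P) isOpen_posdef

theorem S2_SR : S2 P ⊆ SR P := fun _ hp => hp.1.1

theorem gs_inv (P : Pic L V) : Inv3 (Γ := Γ) (fun a => gradient (gmF P a)) (SR P) := by
  intro g x p q h
  exact H709.gradient_congr ((gmF_inv P).ev (isOpen_SR P) g h)

theorem hs_inv (P : Pic L V) : Inv3 (Γ := Γ) (fun a => hess (gmF P a)) (SR P) :=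
  (gs_inv P).fderiv (isOpen_SR P)

theorem SR_smul (P : Pic L V) (g : Γ) {x : X} {p q : E2} (h : ((x, p), q) ∈ SR P) :
    ((g • x, p), q) ∈ SR P := P.Af.dT_smul g h

theorem nu_pt_smul (P : Pic L V) (g : Γ) {x : X} {p q : E2} (h : ((x, p), q) ∈ SR P) :
    P.Bu.nu (g • x) (P.Af.pt (g • x) p) (P.dsc (g • x) q)
      = P.Bu.nu x (P.Af.pt x p) (P.dsc x q) := by
  have h1 : P.dsc (g • x) q = P.dsc x q := P.Af.dsc_smul g h
  rw [h1, P.Af.pt_smul, P.Bu.nu_smul g x _ _ (P.mem3 h)]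

theorem S2_inv (P : Pic L V) (g : Γ) {x : X} {p q : E2} (h : ((g • x, p), q) ∈ S2 P) :
    ((x, p), q) ∈ S2 P := by
  have h0 : ((x, p), q) ∈ SR P := by
    have := SR_smul P g⁻¹ h.1.1
    rwa [inv_smul_smul] at this
  refine ⟨⟨h0, ?_⟩, ?_⟩
  · have := h.1.2
    simp only at this ⊢
    rwa [nu_pt_smul P g h0] at this
  · have h1 : hess (gmF P (g • x, p)) q = hess (gmF P (x, p)) q := hs_inv P g x p q h0
    have := h.2
    simp only at this ⊢
    rwa [h1] at this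

/-- the points of the closed unit ball -/
theorem ball1_dT (P : Pic L V) (x : X) {p : E2} (hp : p ∈ closedBall (0 : E2) 1) :
    (x, p) ∈ P.Af.dT :=
  P.Af.closedBall_dT x (closedBall_subset_closedBall (by norm_num) hp)

theorem nu_pt (P : Pic L V) (x : X) {p : E2} (h : (x, p) ∈ P.Af.dT) :
    P.Bu.nu x (P.Af.pt x p) (P.dsc x p) < 0 := by
  rw [← P.Th_em x h, Pic.Th, P.Bu.nu_en x _ _ (P.mem3 h)]
  linarith [P.nupos x _ (P.mem3 h)]

/-- the derivative of the chart is injective -/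
theorem dsc_inj (P : Pic L V) {x : X} {q : E2} (h : (x, q) ∈ P.Af.dT) {v : E2} (hv : v ≠ 0) :
    fderiv ℝ (P.dsc x) q v ≠ 0 := by
  obtain ⟨M, hM⟩ := P.Af.der_dsc_inv h
  have hM' : fderiv ℝ (P.dsc x) q = M := hM.symm
  rw [hM']
  intro h0
  exact hv (M.injective (h0.trans (map_zero M).symm))

theorem hess_pos (P : Pic L V) (x : X) (ξ : B) {q : E2} (h : (x, q) ∈ P.Af.dT)
    (hn : P.Bu.nu x ξ (P.dsc x q) ≠ 0) {v : E2} (hv : v ≠ 0) :
    0 < ⟪hess (P.Sq x ξ (P.Th x ξ q)) q v, v⟫ := by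
  rw [P.hess_Sq_Th x ξ h]
  change 0 < ⟪ContinuousLinearMap.adjoint (fderiv ℝ (P.dsc x) q)
    ((hess (P.Bu.be x ξ) (P.dsc x q) + hess (P.Bu.be x (P.Th x ξ q)) (P.dsc x q))
      (fderiv ℝ (P.dsc x) q v)), v⟫
  rw [ContinuousLinearMap.adjoint_inner_left]
  exact P.Bu.pos x ξ _ (P.mem3 h) hn _ (dsc_inj P h hv)

theorem diag_S2 (P : Pic L V) (x : X) {p : E2} (hp : p ∈ closedBall (0 : E2) 1) :
    ((x, p), p) ∈ S2 P := by
  have h := ball1_dT P x hp
  refine ⟨⟨h, nu_pt P x h⟩, fun v hv => ?_⟩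
  have h1 := hess_pos P x (L.em x) h (P.nupos x _ (P.mem3 h)).ne' hv
  rw [P.Th_em x h] at h1
  exact h1

theorem YF_jc : JC (YF D) (S1 P) := by
  have hO := isOpen_S1 P
  have hs : S1 P ⊆ SR P := fun _ hp => hp.1
  have hc : Continuous fun a : X × E2 => ((a.1, P.Af.pt a.1 a.2) : X × B) :=
    continuous_fst.prodMk P.Af.pt_cont
  have h1 := D.ρ_jc.pullback hc
  have h2 : JC (fun (a : X × E2) q => D.ρ a.1 (P.Af.pt a.1 a.2) (P.dsc a.1 q)) (S1 P) :=
    h1.comp' ((dscR_jc P).mono hO hs) fun p hp => ⟨P.mem3 hp.1, hp.2.ne⟩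
  exact (h2.add ((jac_jc P).mono hO hs)).add (((bem_jc P).mono hO hs).const_smul P.S.A.h)

theorem YF_inv : Inv3 (Γ := Γ) (YF D) (S1 P) := by
  intro g x p q hq
  have hd : (x, q) ∈ P.Af.dT := hq.1
  rw [YF, YF, jac_smul P g hd, bem_smul P g hd]
  have h1 : P.dsc (g • x) q = P.dsc x q := P.Af.dsc_smul g hd
  simp only
  rw [h1, P.Af.pt_smul, D.ρ_smul g x _ _ (P.mem3 hd) hq.2.ne]

/-- the density of the stable leaves, minus the logarithm of the Hessian -/
def FF (a : X × E2) (q : E2) : ℝ :=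
  YF D a q - Real.log (fderiv ℝ (gradient (gmF P a)) q).det

theorem FF_jc : JC (FF D) (S2 P) := by
  have hO := isOpen_S2 P
  have h1 : JC (fun (a : X × E2) q => (fderiv ℝ (gradient (gmF P a)) q).det) (S2 P) :=
    ((H709.hess_jc (gmF_jc P)).mono hO S2_SR).comp_contDiff contDiff_det'
  exact ((YF_jc D).mono hO fun _ hp => hp.1).sub
    (h1.log fun p hp => det_ne_zero_of_posdef hp.2)

theorem FF_inv : Inv3 (Γ := Γ) (FF D) (S2 P) := by
  intro g x p q hq
  have h1 : fderiv ℝ (gradient (gmF P (g • x, p))) q = fderiv ℝ (gradient (gmF P (x, p))) q :=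
    hs_inv P g x p q (S2_SR hq)
  rw [FF, FF, YF_inv D g x p q hq.1, h1]

/-! ### the product formula -/

/-- the critical points of `b_ξ + b_η` in the affine coordinate -/
theorem Th_of_gradient (P : Pic L V) (x : X) (ξ η : B) {q : E2} (h : (x, q) ∈ P.Af.dT)
    (h1 : 0 ≤ P.Bu.nu x ξ (P.dsc x q)) (h2 : P.Bu.nu x η (P.dsc x q) ≤ 0)
    (h0 : gradient (P.bq x ξ) q + gradient (P.bq x η) q = 0) : P.Th x ξ q = η := by
  rw [P.gradient_bq x ξ h, P.gradient_bq x η h, ← map_add] at h0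
  refine H709.en_of_gradient P.Bu x ξ η (P.mem3 h) h1 h2 ?_
  obtain ⟨M, hM⟩ := P.Af.der_dsc_inv h
  have hM' : fderiv ℝ (P.dsc x) q = M := hM.symm
  refine ext_inner_right ℝ fun v => ?_
  have h3 := congrArg (fun w => ⟪w, M.symm v⟫) h0
  simp only [inner_zero_left] at h3
  rw [ContinuousLinearMap.adjoint_inner_left, hM'] at h3
  rw [inner_zero_left, ← h3]
  change _ = ⟪_, M (M.symm v)⟫
  rw [M.apply_symm_apply]

/-- **the product formula in the affine coordinate** -/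
theorem star_q (x : X) (ξ : B) {q : E2} (h : (x, q) ∈ P.Af.dT)
    (hn : P.Bu.nu x ξ (P.dsc x q) ≠ 0) :
    0 < (hess (P.Sq x ξ (P.Th x ξ q)) q).det ∧
    Real.log (hess (P.Sq x ξ (P.Th x ξ q)) q).det
      = (D.ρ x ξ (P.dsc x q) + jac P x q) + (D.ρ x (P.Th x ξ q) (P.dsc x q) + jac P x q) := by
  obtain ⟨h1, h2⟩ := D.star x ξ _ (P.mem3 h) hn
  have hd := det_dsc_ne P h
  rw [P.hess_Sq_Th x ξ h, det_comp', det_comp', det_adjoint']
  change 0 < _ * ((hess (P.Bu.be x ξ) (P.dsc x q)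
    + hess (P.Bu.be x (P.Bu.en x ξ (P.dsc x q))) (P.dsc x q)).det * _) ∧ Real.log (_ *
    ((hess (P.Bu.be x ξ) (P.dsc x q)
    + hess (P.Bu.be x (P.Bu.en x ξ (P.dsc x q))) (P.dsc x q)).det * _)) = _
  set d := (fderiv ℝ (P.dsc x) q).det with hd'
  set e := (hess (P.Bu.be x ξ) (P.dsc x q)
    + hess (P.Bu.be x (P.Bu.en x ξ (P.dsc x q))) (P.dsc x q)).det with he
  have hdd : d * (e * d) = e * (|d| * |d|) := by
    rw [abs_mul_abs_self]
    ring
  have hpos : 0 < |d| := abs_pos.2 hd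
  refine ⟨by rw [hdd]; positivity, ?_⟩
  rw [hdd, Real.log_mul h1.ne' (mul_pos hpos hpos).ne', Real.log_mul hpos.ne' hpos.ne', h2]
  change _ = D.ρ x ξ (P.dsc x q) + Real.log |d|
    + (D.ρ x (P.Bu.en x ξ (P.dsc x q)) (P.dsc x q) + Real.log |d|)
  ring

theorem hess_split (P : Pic L V) (x : X) (ξ η : B) {q : E2} (h : (x, q) ∈ P.Af.dT) :
    hess (P.dl x ξ) q + hess (P.Sq x (L.em x) η) q = hess (P.Sq x ξ η) q := by
  have h1 : ContDiffAt ℝ 2 (P.dl x ξ) q := (P.dl_smooth x _ h).of_le Pic.two_le_infty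
  have h2 : ContDiffAt ℝ 2 (P.Sq x (L.em x) η) q :=
    ((P.bq_smooth x _ h).add (P.bq_smooth x _ h)).of_le Pic.two_le_infty
  rw [← H547.hess_add h1 h2]
  congr 1
  funext t
  simp only [Pic.dl, Pic.Sq]
  ring

/-- the density of the leaf of the frame is constant in the affine coordinate -/
theorem XF_zero {x : X} {c : ℝ} {q : E2} (h : (x, q) ∈ P.Af.dT)
    (hA : P.S.A.s x (P.dsc x q) * |(fderiv ℝ (P.dsc x) q).det| = c) :
    XF D (x, 0) q = Real.log c := by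
  have hm := P.mem3 h
  have hen : ∀ t ∈ ball (0 : E2) 3, P.Bu.en x (L.em x) t = L.e x t := fun t ht =>
    P.Bu.en_em x t ht
  have h1 : ((x, x), P.dsc x q) ∈ sgD L P.Bu.en := ⟨hm, P.dsc x q, hm, (hen _ hm).symm⟩
  have h2 := D.ρ_eq x x _ h1 (P.nupos x _ hm).ne'
  have h3 : sgm L P.Bu.en x x =ᶠ[𝓝 (P.dsc x q)] id := by
    filter_upwards [isOpen_ball.mem_nhds hm] with t ht
    exact sgm_eq' P.Bu (ball_subset_closedBall ht) (hen t ht).symm
  have h4 : (fderiv ℝ (sgm L P.Bu.en x x) (P.dsc x q)).det = 1 := by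
    rw [h3.fderiv_eq, fderiv_id]
    exact LinearMap.det_id
  rw [Rd, h4, h3.eq_of_nhds, abs_one, Real.log_one, P.Bu.b_em] at h2
  rw [XF]
  simp only
  rw [lb_zero, h2, ← hA, Real.log_mul (P.S.A.s_pos x _ hm).ne' (abs_pos.2 (det_dsc_ne P h)).ne']
  rw [id, jac, Pic.bq]
  ring

/-! ### the data `Cr` at every frame -/

/-- the data of the crossings -/
def cr (x : X) (c : ℝ) : Cr E2 where
  dl y := P.dl x (lb P x y)
  gm p := gmF P (x, p)
  X y := XF D (x, y)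
  Y p := YF D (x, p)
  c := c

theorem norm_inverse_le {A : E2 →L[ℝ] E2} {K : ℝ} (hK : 0 < K)
    (h : ∀ v, K⁻¹ * ‖v‖ ^ 2 ≤ ⟪A v, v⟫) : ‖Ring.inverse A‖ ≤ K := by
  obtain ⟨B, h1, h2, h3⟩ := Vale.Agent.P207.H229.coercive_inv hK h
  have hu : Ring.inverse A = B := by
    let u : (E2 →L[ℝ] E2)ˣ := ⟨A, B, ContinuousLinearMap.ext h2, ContinuousLinearMap.ext h1⟩
    exact Ring.inverse_unit u
  rwa [hu]

theorem norm_iteratedFDeriv_gradient {f : E2 → ℝ} {q : E2} (hf : ContDiffAt ℝ ∞ f q) (k : ℕ) :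
    ‖iteratedFDeriv ℝ k (gradient f) q‖ ≤ ‖iteratedFDeriv ℝ (k + 1) f q‖ := by
  have h1 : ContDiffAt ℝ ∞ (fderiv ℝ f) q := hf.fderiv_right (by simp)
  have h2 := H709.rz.norm_iteratedFDeriv_comp_left (n := k) h1 (by exact_mod_cast le_top)
  have h3 : ‖(H709.rz : (E2 →L[ℝ] ℝ) →L[ℝ] E2)‖ ≤ 1 :=
    ContinuousLinearMap.opNorm_le_bound _ zero_le_one fun l => by rw [H709.norm_rz, one_mul]
  rw [← norm_iteratedFDeriv_fderiv]
  refine h2.trans ?_
  calc _ ≤ 1 * ‖iteratedFDeriv ℝ k (fderiv ℝ f) q‖ := by gcongr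
    _ = _ := one_mul _

theorem norm_iteratedFDeriv_sub_const {f : E2 → E2} (y q : E2) (k : ℕ) :
    ‖iteratedFDeriv ℝ (k + 1) (fun t => f t - y) q‖ = ‖iteratedFDeriv ℝ (k + 1) f q‖ := by
  rw [← norm_iteratedFDeriv_fderiv, ← norm_iteratedFDeriv_fderiv]
  have : fderiv ℝ (fun t => f t - y) = fderiv ℝ f := by
    funext t
    exact fderiv_sub_const y
  rw [this]

/-- **row PD-GLUE** -/
theorem pd_glue (D : BusD P.Bu P.S.A) {ε₀ θ : ℝ} (hε₀ : 0 < ε₀) (hT : P.T2d ε₀) (hθ0 : 0 < θ)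
    (hθ : (1 + θ) * P.Ra.b < 2 * P.Ra.a)
    (hA : ∀ x, ∃ c, ∀ q ∈ ball (0 : E2) 1,
      P.S.A.s x (P.dsc x q) * |(fderiv ℝ (P.dsc x) q).det| = c)
    {CQ : ℝ → ℝ → (ℕ → ℝ) → ℝ → ℝ} (hQ : ∀ x, H281.LQ (fun p => - P.N0 x p) CQ) :
    ∃ (K r0 : ℝ) (Ck : ℕ → ℝ), 1 ≤ K ∧ 0 < r0 ∧ (∀ k, 0 ≤ Ck k) ∧
      (∀ x, ∃ d : H281.PD E2, d.Ok K θ r0 Ck CQ ∧ (∀ y, d.g y = P.gr x (lb P x y)) ∧
        (∀ p, d.N p = - P.N0 x p) ∧
        (∀ y p, ‖y‖ ≤ r0 → ‖p‖ < 7 / 8 → P.Th x (lb P x y) (d.hol y p) = P.Af.pt x p)) := by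
  obtain ⟨r1, hr1, hS2⟩ := exists_diag L (isOpen_S2 P) (S2_inv P) (diag_S2 P)
  obtain ⟨Cg, hCg⟩ := exists_C3 L (H709.gradient_jc (gmF_jc P)) (gs_inv P) (r := r1)
    (fun x p hp q hq => S2_SR (hS2 x p hp q hq))
  obtain ⟨CF, hCF⟩ := exists_C3 L (FF_jc D) (FF_inv D) (r := r1) hS2
  obtain ⟨c0, hc0, hlow⟩ := exists_coer L (H709.hess_jc (gmF_jc P)) (hs_inv P) (r := r1)
    (fun x p hp q hq => ⟨S2_SR (hS2 x p hp q hq), (hS2 x p hp q hq).2⟩)
  obtain ⟨K, hK1, hKg, hKF, hKc⟩ : ∃ K : ℝ, 1 ≤ K ∧ Cg ≤ K ∧ CF ≤ K ∧ c0⁻¹ ≤ K :=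
    ⟨max 1 (max Cg (max CF c0⁻¹)), le_max_left _ _,
      (le_max_left _ _).trans (le_max_right _ _),
      ((le_max_left _ _).trans (le_max_right _ _)).trans (le_max_right _ _),
      ((le_max_right _ _).trans (le_max_right _ _)).trans (le_max_right _ _)⟩
  have hK0 : 0 < K := by linarith
  have hKc' : K⁻¹ ≤ c0 := by
    rw [inv_le_comm₀ hK0 hc0]
    exact hKc
  obtain ⟨r, hr, hrr, hr8⟩ : ∃ r : ℝ, 0 < r ∧ r ≤ r1 ∧ r ≤ 1 / 8 :=
    ⟨min r1 (1 / 8), lt_min hr1 (by norm_num), min_le_left _ _, min_le_right _ _⟩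
  choose C' hC' using fun k : ℕ => hT (1 + θ) hθ (k + 2) (by omega)
  obtain ⟨ρ, hρ, hρδ, hnu⟩ := exists_lb_nu P
  set M0 : ℝ := |C' 0| with hM0
  have hM00 : 0 ≤ M0 := abs_nonneg _
  obtain ⟨r0, hr0, h0ε, h0ρ, h01, h0a, h0b⟩ : ∃ r0 : ℝ, 0 < r0 ∧ r0 ≤ ε₀ ∧ r0 < ρ ∧ r0 ≤ 1 ∧
      (1 + M0) * r0 ≤ r / (8 * K) ∧ (1 + M0) * r0 ≤ (2 * K)⁻¹ := by
    have h1 : 0 < r / (8 * K) / (1 + M0) := by positivity
    have h2 : 0 < (2 * K)⁻¹ / (1 + M0) := by positivity
    have hM : 0 < 1 + M0 := by linarith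
    refine ⟨min ε₀ (min (ρ / 2) (min 1 (min (r / (8 * K) / (1 + M0)) ((2 * K)⁻¹ / (1 + M0))))),
      ?_, min_le_left _ _, ?_, ?_, ?_, ?_⟩
    · exact lt_min hε₀ (lt_min (by linarith) (lt_min one_pos (lt_min h1 h2)))
    · refine ((min_le_right _ _).trans (min_le_left _ _)).trans_lt (by linarith)
    · exact (min_le_right _ _).trans ((min_le_right _ _).trans (min_le_left _ _))
    · rw [mul_comm, ← le_div_iff₀ hM]
      exact (min_le_right _ _).trans ((min_le_right _ _).trans ((min_le_right _ _).trans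
        (min_le_left _ _)))
    · rw [mul_comm, ← le_div_iff₀ hM]
      exact (min_le_right _ _).trans ((min_le_right _ _).trans ((min_le_right _ _).trans
        (min_le_right _ _)))
  choose CX hCX using fun k : ℕ => bnd_lab L (XF_jc D hρδ hnu) (XF_inv D hnu) (r0 := r0)
    (fun x y hy q hq => ⟨(mem_closedBall_zero_iff.1 hy).trans_lt h0ρ,
      closedBall_subset_ball (by norm_num) hq⟩) k
  -- the facts at one frame
  have hr0δ : ∀ y : E2, ‖y‖ ≤ r0 → P.Af.c * ‖y‖ < P.Bu.δ := fun y hy =>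
    (mul_lt_mul_of_pos_left (hy.trans_lt h0ρ) P.Af.c_pos).trans_le hρδ
  have hNr : ∀ x y, ‖y‖ ≤ r0 → P.Nr ε₀ x (lb P x y) := fun x y hy =>
    ⟨lb_nu P x (hr0δ y hy), by rw [lb_gr P x (hr0δ y hy)]; exact hy.trans h0ε⟩
  have hdT : ∀ x, ∀ q ∈ ball (0 : E2) 1, (x, q) ∈ P.Af.dT := fun x q hq =>
    ball1_dT P x (ball_subset_closedBall hq)
  have hgk : ∀ x y, ‖y‖ ≤ r0 → ∀ k, ∀ q ∈ ball (0 : E2) 1,
      ‖iteratedFDeriv ℝ (k + 1) (P.gr x (lb P x y)) q‖ ≤ |C' k| * ‖y‖ ^ (1 + θ) := by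
    intro x y hy k q hq
    have h1 := norm_iteratedFDeriv_gradient (P.dl_smooth x (lb P x y) (hdT x q hq)) (k + 1)
    have h2 := hC' k x (lb P x y) (hNr x y hy) q hq
    rw [lb_gr P x (hr0δ y hy)] at h2
    refine (h1.trans h2).trans ?_
    gcongr
    exact le_abs_self _
  have hgd : ∀ x y, ‖y‖ ≤ r0 → ∀ q ∈ ball (0 : E2) 1, DifferentiableAt ℝ (P.gr x (lb P x y)) q :=
    fun x y hy q hq => P.gr_jc.differentiableAt (p := ((x, lb P x y), q)) (hdT x q hq)
  have hg1 : ∀ x y, ‖y‖ ≤ r0 → ∀ q ∈ ball (0 : E2) 1,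
      ‖fderiv ℝ (P.gr x (lb P x y)) q‖ ≤ M0 * ‖y‖ ^ (1 + θ) := by
    intro x y hy q hq
    have h1 := hgk x y hy 0 q hq
    rwa [← norm_iteratedFDeriv_fderiv, norm_iteratedFDeriv_zero] at h1
  have hg0 : ∀ x y, ‖y‖ ≤ r0 → ∀ q ∈ ball (0 : E2) 1,
      ‖P.gr x (lb P x y) q - y‖ ≤ M0 * ‖y‖ ^ (1 + θ) := by
    intro x y hy q hq
    have h1 := Vale.Agent.P207.H229.taylor0 (hgd x y hy) (hg1 x y hy) hq
    rw [lb_gr P x (hr0δ y hy), sub_zero] at h1
    refine h1.trans ?_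
    have h2 : ‖q‖ ≤ 1 := (mem_ball_zero_iff.1 hq).le
    have h3 : 0 ≤ M0 * ‖y‖ ^ (1 + θ) := by positivity
    nlinarith
  have hpow : ∀ y : E2, ‖y‖ ≤ r0 → ‖y‖ ^ (1 + θ) ≤ ‖y‖ := by
    intro y hy
    rcases eq_or_ne y 0 with rfl | hy0
    · rw [norm_zero, Real.zero_rpow (by linarith)]
    · have h1 := Real.rpow_le_rpow_of_exponent_ge (norm_pos_iff.2 hy0) (hy.trans h01)
        (show (1 : ℝ) ≤ 1 + θ by linarith)
      rwa [Real.rpow_one] at h1
  have hcb : ∀ p : E2, ‖p‖ < 7 / 8 → p ∈ closedBall (0 : E2) 1 := fun p hp =>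
    mem_closedBall_zero_iff.2 (by linarith)
  have hcr : ∀ p q : E2, q ∈ ball p r → q ∈ closedBall p r1 := fun p q hq =>
    closedBall_subset_closedBall hrr (ball_subset_closedBall hq)
  have hsub : ∀ p q : E2, ‖p‖ < 7 / 8 → q ∈ ball p r → q ∈ ball (0 : E2) 1 := by
    intro p q hp hq
    rw [mem_ball, dist_eq_norm] at hq
    rw [mem_ball_zero_iff]
    have h1 : ‖q‖ ≤ ‖q - p‖ + ‖p‖ := by
      have := norm_add_le (q - p) p
      rwa [sub_add_cancel] at this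
    linarith
  -- the crossings
  have hTh : ∀ x y p q, ‖y‖ ≤ r0 → ‖p‖ < 7 / 8 → q ∈ ball p r →
      P.gr x (lb P x y) q + gradient (gmF P (x, p)) q = 0 →
      P.Th x (lb P x y) q = P.Af.pt x p := by
    intro x y p q hy hp hq h0
    have hq1 := hsub p q hp hq
    have hd := hdT x q hq1
    have hS := hS2 x p (hcb p hp) q (hcr p q hq)
    refine Th_of_gradient P x (lb P x y) (P.Af.pt x p) hd ?_ hS.1.2.le ?_
    · exact (hnu x y (hy.trans_lt h0ρ) _ (dsc_one x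
        (closedBall_subset_closedBall (by norm_num) (ball_subset_closedBall hq1)))).le
    · have h1 : gradient (gmF P (x, p)) q
          = gradient (P.bq x (L.em x)) q + gradient (P.bq x (P.Af.pt x p)) q :=
        P.gradient_Sq x _ _ hd
      rw [h1, P.gr_eq_sub x _ hd] at h0
      rw [← h0]
      abel
  have hok : ∀ x c, (∀ q ∈ ball (0 : E2) 1,
      P.S.A.s x (P.dsc x q) * |(fderiv ℝ (P.dsc x) q).det| = c) →
      (cr D x (Real.log c)).Ok K r r0 := by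
    intro x c hc
    exact {
      K1 := hK1
      r_pos := hr
      r_le := hr8
      dl_d1 := fun y hy q hq =>
        P.dl_jc.differentiableAt (p := ((x, lb P x y), q)) (hdT x q hq)
      dl_d2 := fun y hy q hq => hgd x y hy q hq
      gd_small := fun y hy q hq => by
        have h1 := hg0 x y hy q hq
        have h2 := hpow y hy
        have h3 : ‖P.gr x (lb P x y) q‖ ≤ ‖P.gr x (lb P x y) q - y‖ + ‖y‖ := by
          have := norm_add_le (P.gr x (lb P x y) q - y) y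
          rwa [sub_add_cancel] at this
        change ‖P.gr x (lb P x y) q‖ ≤ _
        have h4 : M0 * ‖y‖ ^ (1 + θ) ≤ M0 * r0 := by gcongr; exact h2.trans hy
        have h5 : (1 + M0) * r0 = r0 + M0 * r0 := by ring
        linarith
      hd_small := fun y hy q hq => by
        have h1 := hg1 x y hy q hq
        have h2 := hpow y hy
        change ‖fderiv ℝ (P.gr x (lb P x y)) q‖ ≤ _
        have h4 : M0 * ‖y‖ ^ (1 + θ) ≤ M0 * r0 := by gcongr; exact h2.trans hy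
        have h5 : (1 + M0) * r0 = r0 + M0 * r0 := by ring
        linarith
      gm_d1 := fun p hp q hq =>
        (gmF_jc P).differentiableAt (p := ((x, p), q)) (S2_SR (hS2 x p (hcb p hp) q (hcr p q hq)))
      gs_zero := fun p hp => P.gradient_Sq_pt x (ball1_dT P x (hcb p hp))
      gs_c3 := fun p hp => hCg x p (hcb p hp) K hKg r hr hrr
      gs_low := fun p hp q hq v => by
        refine le_trans ?_ (hlow x p (hcb p hp) q (hcr p q hq) v)
        gcongr
      Fn_c3 := fun p hp => hCF x p (hcb p hp) K hKF r hr hrr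
      star := fun y p q hy hp hq h0 => by
        have h1 := hTh x y p q hy hp hq h0
        have hq1 := hsub p q hp hq
        have hd := hdT x q hq1
        have hn := hnu x y (hy.trans_lt h0ρ) (P.dsc x q) (dsc_one x
          (closedBall_subset_closedBall (by norm_num) (ball_subset_closedBall hq1)))
        have h2 := star_q D x (lb P x y) hd hn.ne'
        rw [h1] at h2
        have h3 : fderiv ℝ ((cr D x (Real.log c)).gd y) q
            + fderiv ℝ ((cr D x (Real.log c)).gs p) q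
            = hess (P.Sq x (lb P x y) (P.Af.pt x p)) q := by
          change hess (P.dl x (lb P x y)) q + hess (P.Sq x (L.em x) (P.Af.pt x p)) q = _
          exact hess_split P x _ _ hd
        rw [h3]
        refine ⟨h2.1, h2.2.trans ?_⟩
        change _ = (D.ρ x (lb P x y) (P.dsc x q) + jac P x q - P.S.A.h * P.bq x (L.em x) q)
          + (D.ρ x (P.Af.pt x p) (P.dsc x q) + jac P x q + P.S.A.h * P.bq x (L.em x) q)
        ring
      base := fun p hp => by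
        have hd := ball1_dT P x (hcb p hp)
        have h2 := star_q D x (L.em x) hd (P.nupos x _ (P.mem3 hd)).ne'
        rw [P.Th_em x hd] at h2
        have h3 := XF_zero D hd (hc p (mem_ball_zero_iff.2 (by linarith)))
        change YF D (x, p) p - Real.log (hess (P.Sq x (L.em x) (P.Af.pt x p)) p).det
          = -Real.log c
        rw [h2.2, ← h3, XF, YF]
        simp only [lb_zero]
        ring }
  refine ⟨Cr.KK K r, r0, fun k => max |C' (k - 1)| |CX k|, (Cr.KK_le hK1 hr).2.2.2.2.2.2, hr0,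
    fun k => le_max_of_le_left (abs_nonneg _), fun x => ?_⟩
  obtain ⟨c, hc⟩ := hA x
  have hO := hok x c hc
  refine ⟨(cr D x (Real.log c)).pd r, ?_, fun y => rfl, fun p => rfl, fun y p hy hp => ?_⟩
  · refine hO.pd_ok le_rfl (fun y hy => ?_) (fun y hy k q hq => ?_)
      (fun y hy => lb_gr P x (hr0δ y hy)) (fun y hy q hq u v => ?_) (fun p hp => ?_)
      (fun y hy => ?_) (hQ x)
    · exact (P.gr_jc.smooth (x, lb P x y)).mono fun q hq => hdT x q hq
    · have hle : ∀ k, |C' (k - 1)| * ‖y‖ ^ (1 + θ)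
          ≤ max |C' (k - 1)| |CX k| * ‖y‖ ^ (1 + θ) := fun k => by
        gcongr
        exact le_max_left _ _
      rcases k with _ | k
      · rw [norm_iteratedFDeriv_zero]
        exact (hg0 x y hy q hq).trans (hle 0)
      · rw [norm_iteratedFDeriv_sub_const]
        exact (hgk x y hy k q hq).trans (hle (k + 1))
    · exact H709.hess_symm ((P.dl_smooth x (lb P x y) (hdT x q hq)).of_le Pic.two_le_infty) u v
    · have hp1 : p ∈ closedBall (0 : E2) 1 := mem_closedBall_zero_iff.2 hp.le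
      change ‖-Ring.inverse (hess (gmF P (x, p)) p)‖ ≤ _
      rw [norm_neg]
      refine (norm_inverse_le hK0 fun v => ?_).trans (Cr.KK_le hK1 hr).1
      refine le_trans ?_ (hlow x p hp1 p (mem_closedBall_self hr1.le) v)
      gcongr
    · have hy' : y ∈ closedBall (0 : E2) r0 := mem_closedBall_zero_iff.2 hy
      refine ⟨((XF_jc D hρδ hnu).smooth (x, y)).mono fun q hq =>
        ⟨hy.trans_lt h0ρ, ball_subset_ball (by norm_num) hq⟩, fun k q hq => ?_⟩
      refine (hCX k x y hy' q (ball_subset_closedBall hq)).trans ?_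
      exact (le_abs_self _).trans (le_max_right _ _)
  · obtain ⟨h1, h2⟩ := hO.hol_spec hy hp
    exact hTh x y p _ hy hp h1 h2

end Vale.Agent.P207.N4.Y.H229
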