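import Vale.Agent.P207.N4.Dim
import Vale.Agent.P207.N7.H229.BusDI
import Vale.Agent.P207.N7.H229.PdGlue
import Vale.Agent.P207.N7.H734.AffU
import Vale.Agent.P207.N7.H547.Lab

/-!
# P207, row PD-GLUE, only `b < 2 a`

The inputs of `Pic.jets` (281) from T2, Lemma Q and the densities; the exponent `θ` is chosen from
`b < 2 a`. This text is the same in N4 and in N5.
-/

set_option linter.unusedSectionVars false
set_option maxSynthPendingDepth 3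

open Set Filter Topology Metric MeasureTheory
open scoped ContDiff

noncomputable section

namespace Vale.Agent.P207.N4.Y

open Vale.Agent.P207.N3

variable [Dim]

variable {Γ X B : Type} [Group Γ] [MetricSpace X] [ProperSpace X] [MulAction Γ X]
  [IsIsometricSMul Γ X] [TopologicalSpace B] [CompactSpace B] [T2Space B] [MulAction Γ B]
  [ContinuousConstSMul Γ B] {L : Leaf Γ X B} [MeasurableSpace B] [BorelSpace B] {V : Type}
  [NormedAddCommGroup V] [NormedSpace ℝ V] [FiniteDimensional ℝ V] (P : Pic L V)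

/-- the exponent -/
theorem Pic.exists_theta : ∃ θ : ℝ, 0 < θ ∧ θ ≤ 1 / 2 ∧ (1 + θ) * P.Ra.b < 2 * P.Ra.a := by
  have h1 := P.Ra.pinch
  have h2 := P.Ra.a_pos
  have h3 := P.Ra.a_le_b
  have hb : 0 < P.Ra.b := h2.trans_le h3
  have hab : P.Ra.b < 2 * P.Ra.a := by linarith
  have h4 : 0 < (2 * P.Ra.a - P.Ra.b) / P.Ra.b := div_pos (by linarith) hb
  refine ⟨min (1 / 2) ((2 * P.Ra.a - P.Ra.b) / P.Ra.b / 2), lt_min (by norm_num) (by linarith),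
    min_le_left _ _, ?_⟩
  have h5 : min (1 / 2) ((2 * P.Ra.a - P.Ra.b) / P.Ra.b / 2) < (2 * P.Ra.a - P.Ra.b) / P.Ra.b :=
    (min_le_right _ _).trans_lt (by linarith)
  rw [lt_div_iff₀ hb] at h5
  linarith

/-- **the data of the product formula at every frame** (all inputs except `T2d` and Lemma Q) -/
theorem Pic.pd_q (hD : Nonempty (BusD P.Bu P.S.A)) {ε₀ : ℝ} (hε₀ : 0 < ε₀) (hT : P.T2d ε₀)
    (hQ : ∃ CQ : ℝ → ℝ → (ℕ → ℝ) → ℝ → ℝ, ∀ x, H281.LQ (fun p => - P.N0 x p) CQ) :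
    ∃ (K θ r0 : ℝ) (Ck : ℕ → ℝ) (CQ : ℝ → ℝ → (ℕ → ℝ) → ℝ → ℝ),
      1 ≤ K ∧ 0 < θ ∧ θ ≤ 1 / 2 ∧ 0 < r0 ∧ (∀ k, 0 ≤ Ck k) ∧
      (∀ x, ∃ d : H281.PD E2, d.Ok K θ r0 Ck CQ ∧ ∀ y, d.g y = P.gr x (P.lb x y)) := by
  obtain ⟨D⟩ := hD
  obtain ⟨CQ, hQ⟩ := hQ
  obtain ⟨θ, hθ0, hθ1, hθ⟩ := P.exists_theta
  obtain ⟨K, r0, Ck, h1, h2, h3, h4⟩ := H229.pd_glue D hε₀ hT hθ0 hθ
    (fun x => ⟨_, fun q hq => P.Af.s_const P.S.A
      (H229.ball1_dT P x (ball_subset_closedBall hq))⟩) hQ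
  refine ⟨K, θ, r0, Ck, CQ, h1, hθ0, hθ1, h2, h3, fun x => ?_⟩
  obtain ⟨d, h5, h6, -, -⟩ := h4 x
  exact ⟨d, h5, h6⟩

end Vale.Agent.P207.N4.Y
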